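import Vale.Agent.P121.Main

/-! A compactly supported probability measure on `ℝ³` with bounded density and finite Kantorovich
value for the three-marginal Coulomb problem that admits no optimal Monge plan. -/

namespace Vale.Agent.Results.P121.NoMonge

open MeasureTheory Vale.Agent.P121
open scoped ENNReal NNReal

/-- There is a Borel probability measure on `ℝ³`, absolutely continuous with respect to Lebesgue
measure (even with bounded density), compactly supported, with finite Kantorovich value, which
admits no optimal Monge plan for the three-marginal Coulomb cost. -/
theorem result : ∃ μ : Measure E3, IsProbabilityMeasure μ ∧ μ ≪ volume ∧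
    (∃ C : ℝ≥0, μ ≤ C • (volume : Measure E3)) ∧ (∃ K : Set E3, IsCompact K ∧ μ Kᶜ = 0) ∧
    kantorovich μ < ∞ ∧ ¬ HasOptimalMongePlan μ :=
  main

end Vale.Agent.Results.P121.NoMonge
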