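import Vale.Agent.P121.MainSmooth

/-! A smooth compactly supported probability density on `ℝ³` for which the three-marginal Coulomb
problem has finite Kantorovich value but admits no optimal Monge plan. -/

namespace Vale.Agent.Results.P121.NoMongeSmooth

open MeasureTheory Vale.Agent.P121
open scoped ENNReal ContDiff

/-- There is a nonnegative, compactly supported, infinitely differentiable probability density `f`
on `ℝ³` such that `μ = f dx` has finite Kantorovich value for the three-marginal Coulomb cost and
admits no optimal Monge plan. -/
theorem result : ∃ f : E3 → ℝ, ContDiff ℝ ∞ f ∧ HasCompactSupport f ∧ (∀ x, 0 ≤ f x) ∧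
    IsProbabilityMeasure (volume.withDensity (fun x => ENNReal.ofReal (f x))) ∧
    kantorovich (volume.withDensity (fun x => ENNReal.ofReal (f x))) < ⊤ ∧
    ¬ HasOptimalMongePlan (volume.withDensity (fun x => ENNReal.ofReal (f x))) :=
  main_smooth

end Vale.Agent.Results.P121.NoMongeSmooth
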